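import Vale.Agent.P220.R2.H180.Fam

/-!
# The shrinking family of an arc, with square roots at both ends
-/

open Set Filter Topology
open scoped ContDiff

namespace Vale.Agent.P220.R2.H180.T

/-- The family of arcs with square roots of `(1 + C) / (2 (1 - τ))` and `(1 - C) / (2 τ)`. -/
structure IsFam (c : ℝ → ℂ) (A B : ℝ × ℝ → ℂ) : Prop where
  hA : ContDiff ℝ ∞ A
  hB : ContDiff ℝ ∞ B
  rel : ∀ s, ∀ τ ∈ Icc (0 : ℝ) 1, A (s, τ) ^ 2 * (1 - τ) + B (s, τ) ^ 2 * τ = 1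
  ane : ∀ s, ∀ τ ∈ Icc (0 : ℝ) 1, A (s, τ) ≠ 0
  bne : ∀ s, ∀ τ ∈ Icc (0 : ℝ) 1, B (s, τ) ≠ 0
  inj : ∀ s, ∀ x ∈ Icc (0 : ℝ) 1, ∀ y ∈ Icc (0 : ℝ) 1,
    A (s, x) ^ 2 * (1 - x) = A (s, y) ^ 2 * (1 - y) → x = y
  imm : ∀ s, ∀ x ∈ Icc (0 : ℝ) 1,
    2 * A (s, x) * fderiv ℝ A (s, x) (0, 1) * (1 - x) - A (s, x) ^ 2 ≠ 0
  A0 : ∀ τ ∈ Icc (0 : ℝ) 1, A (0, τ) = 1
  B0 : ∀ τ ∈ Icc (0 : ℝ) 1, B (0, τ) = 1
  C1 : ∀ τ ∈ Icc (0 : ℝ) 1, 2 * (A (1, τ) ^ 2 * (1 - τ)) - 1 = c τ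

/-- a continuous square root of `1` on `[0, 1]` -/
theorem eq_one {f : ℝ → ℂ} (hf : Continuous f) (h0 : f 0 = 1)
    (h : ∀ t ∈ Icc (0 : ℝ) 1, f t ^ 2 = 1) {τ : ℝ} (hτ : τ ∈ Icc (0 : ℝ) 1) : f τ = 1 := by
  rcases sq_eq_sq_iff_eq_or_eq_neg.1 ((h τ hτ).trans (one_pow 2).symm) with h1 | h1
  · exact h1
  · exfalso
    have hcont : Continuous fun t : ℝ => (f t).re := Complex.continuous_re.comp hf
    have hiv := intermediate_value_Icc' hτ.1 hcont.continuousOn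
    have hmem : (0 : ℝ) ∈ Icc (f τ).re (f 0).re := by
      rw [h0, h1]
      simp
    obtain ⟨t, ht, ht0⟩ := hiv hmem
    beta_reduce at ht0
    have h3 := h t ⟨ht.1, ht.2.trans hτ.2⟩
    rcases sq_eq_sq_iff_eq_or_eq_neg.1 (h3.trans (one_pow 2).symm) with h4 | h4
    · rw [h4] at ht0
      simp at ht0
    · rw [h4] at ht0
      simp at ht0

theorem slice_deriv {X : Type} [NormedAddCommGroup X] [NormedSpace ℝ X] {C : ℝ × ℝ → X}
    (hC : ContDiff ℝ ∞ C) (s t : ℝ) :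
    HasDerivAt (fun r => C (s, r)) (fderiv ℝ C (s, t) (0, 1)) t := by
  have h1 : HasFDerivAt C (fderiv ℝ C (s, t)) (s, t) := (hC.differentiable (by simp) _).hasFDerivAt
  exact h1.comp_hasDerivAt t ((hasDerivAt_const t s).prodMk (hasDerivAt_id t))

theorem _root_.Vale.Agent.P220.R2.H180.IsArc.exists_fam2 {c : ℝ → ℂ} (h : IsArc c) :
    ∃ A B, IsFam c A B := by
  set β : ℝ → ℝ := Real.smoothTransition with hβ
  have hβs : ContDiff ℝ ∞ β := Real.smoothTransition.contDiff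
  have hβ1 : ∀ s, β s ∈ Icc (0 : ℝ) 1 := fun s =>
    ⟨Real.smoothTransition.nonneg _, Real.smoothTransition.le_one _⟩
  have hβ0 : β 0 = 0 := Real.smoothTransition.zero
  have hβ1' : β 1 = 1 := Real.smoothTransition.one
  have hmul : ∀ τ ∈ Icc (0 : ℝ) 1, ∀ β' ∈ Icc (0 : ℝ) 1, β' * τ ∈ Icc (0 : ℝ) 1 :=
    fun τ hτ β' hβ' => ⟨mul_nonneg hβ'.1 hτ.1, mul_le_one₀ hβ'.2 hτ.1 hτ.2⟩
  have h0 : (0 : ℝ) ∈ Icc (0 : ℝ) 1 := by simp
  have hΔ := hc_smooth h.smooth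
  have hne : ∀ s, hc c (0, β s) ≠ 0 := fun s => h.hc_ne h0 (hβ1 s)
  -- the square roots
  set N : ℝ × ℝ → ℂ := fun x => hc c (x.1 * x.2, x.1) * hc c (0, x.1) with hN
  have hNs : ContDiff ℝ ∞ N :=
    (hΔ.comp ((contDiff_fst.mul contDiff_snd).prodMk contDiff_fst)).mul
      (hΔ.comp (contDiff_const.prodMk contDiff_fst))
  have hNne : ∀ x ∈ Icc (0 : ℝ) 1 ×ˢ Icc (0 : ℝ) 1, N x ≠ 0 := by
    intro x hx
    exact mul_ne_zero (h.hc_ne (hmul _ hx.2 _ hx.1) hx.1) (h.hc_ne h0 hx.1)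
  obtain ⟨a, ha, ha0, ha2⟩ := exists_sqrt hNs hNne (n₀ := hc c (0, 0)) (by simp [hN, sq])
  set M : ℝ × ℝ → ℂ := fun x => hc c (0, x.1 * x.2) * hc c (0, x.1) with hM
  have hMs : ContDiff ℝ ∞ M :=
    (hΔ.comp (contDiff_const.prodMk (contDiff_fst.mul contDiff_snd))).mul
      (hΔ.comp (contDiff_const.prodMk contDiff_fst))
  have hMne : ∀ x ∈ Icc (0 : ℝ) 1 ×ˢ Icc (0 : ℝ) 1, M x ≠ 0 := by
    intro x hx
    exact mul_ne_zero (h.hc_ne h0 (hmul _ hx.2 _ hx.1)) (h.hc_ne h0 hx.1)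
  obtain ⟨b, hb, hb0, hb2⟩ := exists_sqrt hMs hMne (n₀ := hc c (0, 0)) (by simp [hM, sq])
  set D : ℝ × ℝ → ℂ := fun x => (hc c (0, β x.1))⁻¹ with hD
  have hDs : ContDiff ℝ ∞ D :=
    (hΔ.comp (contDiff_const.prodMk (hβs.comp contDiff_fst))).inv (fun x => hne x.1)
  have hD1 : ∀ s t, hc c (0, β s) * D (s, t) = 1 := fun s t => mul_inv_cancel₀ (hne s)
  have hDne : ∀ s t, D (s, t) ≠ 0 := fun s t => inv_ne_zero (hne s)
  set A : ℝ × ℝ → ℂ := fun x => a (β x.1, x.2) * D x with hA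
  set B : ℝ × ℝ → ℂ := fun x => b (β x.1, x.2) * D x with hB
  have hAs : ContDiff ℝ ∞ A :=
    (ha.comp ((hβs.comp contDiff_fst).prodMk contDiff_snd)).mul hDs
  have hBs : ContDiff ℝ ∞ B :=
    (hb.comp ((hβs.comp contDiff_fst).prodMk contDiff_snd)).mul hDs
  have hA2 : ∀ s, ∀ τ ∈ Icc (0 : ℝ) 1, A (s, τ) ^ 2 = hc c (β s * τ, β s) * D (s, τ) := by
    intro s τ hτ
    simp only [hA, mul_pow]
    rw [ha2 (β s, τ) ⟨hβ1 s, hτ⟩]
    simp only [hN]
    linear_combination (hc c (β s * τ, β s) * D (s, τ)) * hD1 s τ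
  have hB2 : ∀ s, ∀ τ ∈ Icc (0 : ℝ) 1, B (s, τ) ^ 2 = hc c (0, β s * τ) * D (s, τ) := by
    intro s τ hτ
    simp only [hB, mul_pow]
    rw [hb2 (β s, τ) ⟨hβ1 s, hτ⟩]
    simp only [hM]
    linear_combination (hc c (0, β s * τ) * D (s, τ)) * hD1 s τ
  -- the function `(1 + C) / 2`
  set F : ℝ → ℝ → ℂ := fun s τ => 1 - (τ : ℂ) * hc c (0, β s * τ) * D (s, 0) with hF
  have hFA : ∀ s, ∀ τ ∈ Icc (0 : ℝ) 1, A (s, τ) ^ 2 * (1 - τ) = F s τ := by
    intro s τ hτ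
    rw [hA2 s τ hτ]
    have h1 := hc_key h.smooth (β s) 1 τ
    have h2 := hD1 s τ
    rw [mul_one] at h1
    have h3 : D (s, 0) = D (s, τ) := rfl
    simp only [hF]
    rw [h3]
    push_cast at h1
    linear_combination (-D (s, τ)) * h1 + h2
  have hdiff : ∀ s x y, F s x = F s y + ((x - y : ℝ) : ℂ) * (-hc c (β s * y, β s * x) *
      D (s, 0)) := by
    intro s x y
    have h1 := hc_key h.smooth (β s) x y
    simp only [hF]
    push_cast
    linear_combination (-D (s, 0)) * h1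
  refine ⟨A, B, hAs, hBs, ?_, ?_, ?_, ?_, ?_, ?_, ?_, ?_⟩
  · intro s τ hτ
    rw [hFA s τ hτ, hB2 s τ hτ]
    have h3 : D (s, 0) = D (s, τ) := rfl
    simp only [hF]
    rw [h3]
    ring
  · intro s τ hτ h1
    have h2 := hA2 s τ hτ
    rw [h1] at h2
    have h4 := mul_ne_zero (h.hc_ne (hmul τ hτ _ (hβ1 s)) (hβ1 s)) (hDne s τ)
    rw [← h2] at h4
    simp at h4
  · intro s τ hτ h1
    have h2 := hB2 s τ hτ
    rw [h1] at h2
    have h4 := mul_ne_zero (h.hc_ne h0 (hmul τ hτ _ (hβ1 s))) (hDne s τ)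
    rw [← h2] at h4
    simp at h4
  · intro s x hx y hy h1
    rw [hFA s x hx, hFA s y hy] at h1
    have h2 := hdiff s x y
    rw [h1, left_eq_add, mul_eq_zero] at h2
    rcases h2 with h2 | h2
    · have : x - y = 0 := by exact_mod_cast h2
      linarith
    · exfalso
      have h3 := h.hc_ne (hmul y hy _ (hβ1 s)) (hmul x hx _ (hβ1 s))
      exact mul_ne_zero (neg_ne_zero.2 h3) (hDne s 0) h2
  · intro s x hx
    have h1 : HasDerivAt (fun t : ℝ => F s x + ((t - x : ℝ) : ℂ) *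
        (-hc c (β s * x, β s * t) * D (s, 0))) (-hc c (β s * x, β s * x) * D (s, 0)) x := by
      have d1 : HasDerivAt (fun t : ℝ => ((t - x : ℝ) : ℂ)) 1 x := by
        have := ((hasDerivAt_id x).sub_const x).ofReal_comp
        simpa using this
      have d2 : DifferentiableAt ℝ (fun t : ℝ => -hc c (β s * x, β s * t) * D (s, 0)) x := by
        have : ContDiff ℝ ∞ (fun t : ℝ => -hc c (β s * x, β s * t) * D (s, 0)) :=
          (hΔ.comp (contDiff_const.prodMk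
            (contDiff_const.mul contDiff_id))).neg.mul contDiff_const
        exact this.differentiable (by simp) x
      have d3 := (d1.mul d2.hasDerivAt).const_add (F s x)
      simpa using d3
    have h2 : F s = fun t : ℝ => F s x + ((t - x : ℝ) : ℂ) *
        (-hc c (β s * x, β s * t) * D (s, 0)) := funext fun t => hdiff s t x
    rw [← h2] at h1
    have e1 := slice_deriv hAs s x
    have e2 := (e1.pow 2).mul ((hasDerivAt_id x).ofReal_comp.const_sub 1)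
    have e3 : HasDerivWithinAt (fun t : ℝ => A (s, t) ^ 2 * (1 - t)) _ (Icc 0 1) x :=
      e2.hasDerivWithinAt
    have e4 : HasDerivWithinAt (fun t : ℝ => A (s, t) ^ 2 * (1 - t)) _ (Icc 0 1) x :=
      h1.hasDerivWithinAt.congr (fun t ht => hFA s t ht) (hFA s x hx)
    have e5 := (uniqueDiffOn_Icc (zero_lt_one' ℝ) x hx).eq_deriv _ e3 e4
    have h3 := h.hc_ne (hmul x hx _ (hβ1 s)) (hmul x hx _ (hβ1 s))
    have h4 := mul_ne_zero (neg_ne_zero.2 h3) (hDne s 0)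
    rw [← e5] at h4
    intro h5
    apply h4
    simp
    linear_combination h5
  · intro τ hτ
    refine eq_one (f := fun t => A (0, t)) (hAs.continuous.comp (by fun_prop)) ?_ ?_ hτ
    · show a (β 0, 0) * D (0, 0) = 1
      rw [hβ0, ha0]
      have h2 := hD1 0 0
      rwa [hβ0] at h2
    · intro t ht
      rw [hA2 0 t ht]
      have h2 := hD1 0 t
      rw [hβ0] at h2 ⊢
      rw [zero_mul]
      exact h2
  · intro τ hτ
    refine eq_one (f := fun t => B (0, t)) (hBs.continuous.comp (by fun_prop)) ?_ ?_ hτ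
    · show b (β 0, 0) * D (0, 0) = 1
      rw [hβ0, hb0]
      have h2 := hD1 0 0
      rwa [hβ0] at h2
    · intro t ht
      rw [hB2 0 t ht]
      have h2 := hD1 0 t
      rw [hβ0] at h2 ⊢
      rw [zero_mul]
      exact h2
  · intro τ hτ
    rw [hFA 1 τ hτ]
    have h2 := hD1 1 0
    simp only [hF]
    rw [hβ1', one_mul]
    rw [hβ1'] at h2
    have h4 := hc_mul h.smooth 0 1
    have h5 := hc_mul h.smooth 0 τ
    rw [h.zero, h.one] at h4
    rw [h.zero] at h5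
    push_cast at h4 h5
    have h6 : hc c (0, 1) = -2 := by linear_combination -h4
    rw [h6] at h2
    linear_combination -h5 + (τ : ℂ) * hc c (0, τ) * h2

end Vale.Agent.P220.R2.H180.T
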