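import Mathlib

/-!
# Smoothness of integrals over a compact space of parameters
-/

open MeasureTheory Filter Topology Set
open scoped ContDiff

namespace Vale.Agent.P220.R2.H180.T

set_option linter.unusedSectionVars false

variable {Γ : Type} [TopologicalSpace Γ] [CompactSpace Γ] [MeasurableSpace Γ] [BorelSpace Γ]
  {V X : Type} [NormedAddCommGroup V] [NormedSpace ℝ V] [FiniteDimensional ℝ V]
  [NormedAddCommGroup X] [NormedSpace ℝ X] [FiniteDimensional ℝ X]

theorem hasFDerivAt_par (μ : Measure Γ) [IsFiniteMeasure μ] {Y : Type} [NormedAddCommGroup Y]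
    [NormedSpace ℝ Y] [FiniteDimensional ℝ Y] {F : V × X → Y} (hF : ContDiff ℝ ∞ F) {a : Γ → V}
    (ha : Continuous a) (x₀ : X) : HasFDerivAt (fun x => ∫ g, F (a g, x) ∂μ)
      (∫ g, (fderiv ℝ F (a g, x₀)).comp (ContinuousLinearMap.inr ℝ V X) ∂μ) x₀ := by
  have hF' : ContDiff ℝ ∞ fun p : V × X => (fderiv ℝ F p).comp (ContinuousLinearMap.inr ℝ V X) :=
    (hF.fderiv_right (m := ∞) (by simp)).clm_comp contDiff_const
  have hK : IsCompact (range a ×ˢ Metric.closedBall x₀ 1) :=
    (isCompact_range ha).prod (isCompact_closedBall x₀ 1)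
  obtain ⟨C, hC⟩ := hK.exists_bound_of_continuousOn (f := fun p : V × X =>
    (fderiv ℝ F p).comp (ContinuousLinearMap.inr ℝ V X)) hF'.continuous.continuousOn
  obtain ⟨C₀, hC₀⟩ := hK.exists_bound_of_continuousOn (f := F) hF.continuous.continuousOn
  have hcont : ∀ x, Continuous fun g => F (a g, x) := fun x =>
    hF.continuous.comp (ha.prodMk continuous_const)
  refine hasFDerivAt_integral_of_dominated_of_fderiv_le (s := Metric.closedBall x₀ 1)
    (F := fun x g => F (a g, x))
    (F' := fun x g => (fderiv ℝ F (a g, x)).comp (ContinuousLinearMap.inr ℝ V X))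
    (bound := fun _ => C) (Metric.closedBall_mem_nhds x₀ one_pos) ?_ ?_ ?_ ?_
    (integrable_const C) ?_
  · exact Eventually.of_forall fun x => (hcont x).aestronglyMeasurable
  · refine Integrable.of_bound (hcont x₀).aestronglyMeasurable C₀ ?_
    exact Eventually.of_forall fun g =>
      hC₀ (a g, x₀) ⟨mem_range_self g, Metric.mem_closedBall_self zero_le_one⟩
  · exact (hF'.continuous.comp (ha.prodMk continuous_const)).aestronglyMeasurable
  · exact Eventually.of_forall fun g x hx => hC (a g, x) ⟨mem_range_self g, hx⟩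
  · refine Eventually.of_forall fun g x _ => ?_
    have h1 : HasFDerivAt F (fderiv ℝ F (a g, x)) (a g, x) :=
      (hF.differentiable (by simp) _).hasFDerivAt
    exact h1.comp x (hasFDerivAt_prodMk_right (a g) x)

theorem integrable_cpt (μ : Measure Γ) [IsFiniteMeasure μ] {Y : Type} [NormedAddCommGroup Y]
    [NormedSpace ℝ Y] [FiniteDimensional ℝ Y] {f : Γ → Y} (hf : Continuous f) :
    Integrable f μ := by
  obtain ⟨C, hC⟩ := isCompact_univ.exists_bound_of_continuousOn (f := f) hf.continuousOn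
  exact Integrable.of_bound hf.aestronglyMeasurable C (Eventually.of_forall fun g =>
    hC g (mem_univ g))

theorem fderiv_par (μ : Measure Γ) [IsFiniteMeasure μ] {Y : Type} [NormedAddCommGroup Y]
    [NormedSpace ℝ Y] [FiniteDimensional ℝ Y] {F : V × X → Y} (hF : ContDiff ℝ ∞ F) {a : Γ → V}
    (ha : Continuous a) (x₀ u : X) : fderiv ℝ (fun x => ∫ g, F (a g, x) ∂μ) x₀ u =
      ∫ g, fderiv ℝ F (a g, x₀) (0, u) ∂μ := by
  have hint : Integrable (fun g =>
      (fderiv ℝ F (a g, x₀)).comp (ContinuousLinearMap.inr ℝ V X)) μ := by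
    refine integrable_cpt μ ?_
    exact ((hF.fderiv_right (m := ∞) (by simp)).clm_comp contDiff_const).continuous.comp
      (ha.prodMk continuous_const)
  rw [(hasFDerivAt_par μ hF ha x₀).fderiv, ContinuousLinearMap.integral_apply hint]
  rfl

theorem contDiff_par_nat (μ : Measure Γ) [IsFiniteMeasure μ] {a : Γ → V} (ha : Continuous a)
    (n : ℕ) : ∀ {Y : Type} [NormedAddCommGroup Y] [NormedSpace ℝ Y] [FiniteDimensional ℝ Y]
      {F : V × X → Y}, ContDiff ℝ ∞ F → ContDiff ℝ n fun x => ∫ g, F (a g, x) ∂μ := by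
  induction n with
  | zero =>
    intro Y _ _ _ F hF
    rw [Nat.cast_zero, contDiff_zero]
    exact continuous_iff_continuousAt.2 fun x => (hasFDerivAt_par μ hF ha x).continuousAt
  | succ n ih =>
    intro Y _ _ _ F hF
    rw [Nat.cast_succ, contDiff_succ_iff_hasFDerivAt]
    exact ⟨_, ih (F := fun p => (fderiv ℝ F p).comp (ContinuousLinearMap.inr ℝ V X))
      ((hF.fderiv_right (m := ∞) (by simp)).clm_comp contDiff_const),
      fun x => hasFDerivAt_par μ hF ha x⟩

theorem contDiff_par (μ : Measure Γ) [IsFiniteMeasure μ] {a : Γ → V} (ha : Continuous a)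
    {Y : Type} [NormedAddCommGroup Y] [NormedSpace ℝ Y] [FiniteDimensional ℝ Y]
      {F : V × X → Y} (hF : ContDiff ℝ ∞ F) : ContDiff ℝ ∞ fun x => ∫ g, F (a g, x) ∂μ :=
  contDiff_infty.2 fun n => contDiff_par_nat μ ha n hF

end Vale.Agent.P220.R2.H180.T
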